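import Vale.Agent.P254.Bdl.B3

/-!
P254, block K6 (helper321): calculus of the divided differences `dd1`, `dd2` of the interface.

* symmetry in all arguments (pure algebra);
* products, reciprocals, quotients, scaling, sums, squares, polynomials;
* chain rule in first order;
* mean value forms, bounds, monotonicity, sign of `dd2`;
* Cauchy-Schwarz bound `F[x,y]² ≤ G[x,y]` when `F'² ≤ G'`, and the two sided version;
* logarithm: `2/(x+y) ≤ log[x,y] ≤ 1/√(xy)`.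
-/

set_option autoImplicit false

noncomputable section

namespace Vale.Agent.P254.H321

open Set
open Vale.Agent.P254.L (dd1 dd2)

variable {f f1 f2 g g1 g2 : ℝ → ℝ} {x y z : ℝ}

/-! ### values -/

theorem dd1_self (f f1 : ℝ → ℝ) (x : ℝ) : dd1 f f1 x x = f1 x := by
  unfold dd1; rw [if_pos rfl]

theorem dd1_ne (f f1 : ℝ → ℝ) (h : x ≠ y) : dd1 f f1 x y = (f x - f y) / (x - y) := by
  unfold dd1; rw [if_neg h]

theorem dd2_self (f f1 f2 : ℝ → ℝ) (x : ℝ) : dd2 f f1 f2 x x x = f2 x / 2 := by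
  unfold dd2; rw [if_pos rfl, if_pos rfl]

theorem dd2_xyx (f f1 f2 : ℝ → ℝ) (h : x ≠ y) :
    dd2 f f1 f2 x y x = (f1 x - dd1 f f1 x y) / (x - y) := by
  unfold dd2; rw [if_pos rfl, if_neg h]

theorem dd2_ne (f f1 f2 : ℝ → ℝ) (h : x ≠ z) :
    dd2 f f1 f2 x y z = (dd1 f f1 x y - dd1 f f1 y z) / (x - z) := by
  unfold dd2; rw [if_neg h]

/-- `(x - y) f[x,y] = f x - f y`, always -/
theorem mul_dd1 (f f1 : ℝ → ℝ) (x y : ℝ) : (x - y) * dd1 f f1 x y = f x - f y := by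
  by_cases h : x = y
  · subst h; simp
  · rw [dd1_ne f f1 h, mul_div_cancel₀ _ (sub_ne_zero.2 h)]

/-! ### symmetry -/

theorem dd1_comm (f f1 : ℝ → ℝ) (x y : ℝ) : dd1 f f1 x y = dd1 f f1 y x := by
  by_cases h : x = y
  · rw [h]
  · rw [dd1_ne f f1 h, dd1_ne f f1 (Ne.symm h), ← neg_sub (f y) (f x), ← neg_sub y x, neg_div_neg_eq]

theorem dd2_rev (f f1 f2 : ℝ → ℝ) (x y z : ℝ) : dd2 f f1 f2 x y z = dd2 f f1 f2 z y x := by
  by_cases h : x = z
  · rw [h]
  · rw [dd2_ne f f1 f2 h, dd2_ne f f1 f2 (Ne.symm h), dd1_comm f f1 x y, dd1_comm f f1 y z,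
      ← neg_sub (dd1 f f1 z y) (dd1 f f1 y x), ← neg_sub z x, neg_div_neg_eq]

theorem dd2_swap (f f1 f2 : ℝ → ℝ) (x y z : ℝ) : dd2 f f1 f2 x y z = dd2 f f1 f2 y x z := by
  by_cases hxy : x = y
  · rw [hxy]
  by_cases hxz : x = z
  · subst hxz
    rw [dd2_xyx f f1 f2 hxy, dd2_ne f f1 f2 (Ne.symm hxy), dd1_self, dd1_comm f f1 y x,
      show f1 x - dd1 f f1 x y = -(dd1 f f1 x y - f1 x) by ring,
      show x - y = -(y - x) by ring, neg_div_neg_eq]
  by_cases hyz : y = z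
  · subst hyz
    rw [dd2_ne f f1 f2 hxy, dd2_xyx f f1 f2 (Ne.symm hxy), dd1_self, dd1_comm f f1 y x,
      show dd1 f f1 x y - f1 y = -(f1 y - dd1 f f1 x y) by ring,
      show x - y = -(y - x) by ring, neg_div_neg_eq]
  rw [dd2_ne f f1 f2 hxz, dd2_ne f f1 f2 hyz, dd1_ne f f1 hxy, dd1_ne f f1 hyz,
    dd1_ne f f1 (Ne.symm hxy), dd1_ne f f1 hxz]
  have h1 := sub_ne_zero.2 hxy
  have h2 := sub_ne_zero.2 hxz
  have h3 := sub_ne_zero.2 hyz
  have h4 := sub_ne_zero.2 (Ne.symm hxy)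
  field_simp
  ring

theorem dd2_swap' (f f1 f2 : ℝ → ℝ) (x y z : ℝ) : dd2 f f1 f2 x y z = dd2 f f1 f2 x z y := by
  rw [dd2_rev, dd2_swap, dd2_rev]

theorem dd2_rot (f f1 f2 : ℝ → ℝ) (x y z : ℝ) : dd2 f f1 f2 x y z = dd2 f f1 f2 y z x := by
  rw [dd2_swap, dd2_swap']

/-- `(x - z) f[x,y,z] = f[x,y] - f[y,z]`, always -/
theorem mul_dd2 (f f1 f2 : ℝ → ℝ) (x y z : ℝ) :
    (x - z) * dd2 f f1 f2 x y z = dd1 f f1 x y - dd1 f f1 y z := by
  by_cases h : x = z
  · subst h; rw [dd1_comm f f1 y x]; ring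
  · rw [dd2_ne f f1 f2 h, mul_div_cancel₀ _ (sub_ne_zero.2 h)]

/-! ### linearity -/

theorem dd1_add (f f1 g g1 : ℝ → ℝ) (x y : ℝ) :
    dd1 (fun t => f t + g t) (fun t => f1 t + g1 t) x y = dd1 f f1 x y + dd1 g g1 x y := by
  by_cases h : x = y
  · subst h; simp only [dd1_self]
  · simp only [dd1_ne _ _ h]; ring

theorem dd1_smul (c : ℝ) (f f1 : ℝ → ℝ) (x y : ℝ) :
    dd1 (fun t => c * f t) (fun t => c * f1 t) x y = c * dd1 f f1 x y := by
  by_cases h : x = y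
  · subst h; simp only [dd1_self]
  · simp only [dd1_ne _ _ h]; ring

theorem dd2_add (f f1 f2 g g1 g2 : ℝ → ℝ) (x y z : ℝ) :
    dd2 (fun t => f t + g t) (fun t => f1 t + g1 t) (fun t => f2 t + g2 t) x y z
      = dd2 f f1 f2 x y z + dd2 g g1 g2 x y z := by
  by_cases h : x = z
  · subst h
    by_cases h' : x = y
    · subst h'; simp only [dd2_self]; ring
    · simp only [dd2_xyx _ _ _ h', dd1_add]; ring
  · simp only [dd2_ne _ _ _ h, dd1_add]; ring

theorem dd2_smul (c : ℝ) (f f1 f2 : ℝ → ℝ) (x y z : ℝ) :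
    dd2 (fun t => c * f t) (fun t => c * f1 t) (fun t => c * f2 t) x y z
      = c * dd2 f f1 f2 x y z := by
  by_cases h : x = z
  · subst h
    by_cases h' : x = y
    · subst h'; simp only [dd2_self]; ring
    · simp only [dd2_xyx _ _ _ h', dd1_smul]; ring
  · simp only [dd2_ne _ _ _ h, dd1_smul]; ring

/-! ### products -/

/-- `(fg)[x,y] = f(x) g[x,y] + f[x,y] g(y)` -/
theorem dd1_mul (f f1 g g1 : ℝ → ℝ) (x y : ℝ) :
    dd1 (fun t => f t * g t) (fun t => f1 t * g t + f t * g1 t) x y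
      = f x * dd1 g g1 x y + dd1 f f1 x y * g y := by
  by_cases h : x = y
  · subst h; simp only [dd1_self]; ring
  · simp only [dd1_ne _ _ h]; ring

/-- symmetric form: `(fg)[x,y] = (f(x)+f(y))/2 g[x,y] + f[x,y] (g(x)+g(y))/2` -/
theorem dd1_mul' (f f1 g g1 : ℝ → ℝ) (x y : ℝ) :
    dd1 (fun t => f t * g t) (fun t => f1 t * g t + f t * g1 t) x y
      = (f x + f y) / 2 * dd1 g g1 x y + dd1 f f1 x y * ((g x + g y) / 2) := by
  by_cases h : x = y
  · subst h; simp only [dd1_self]; ring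
  · simp only [dd1_ne _ _ h]; ring

/-- `(fg)[x,y,z] = f(x) g[x,y,z] + f[x,y] g[y,z] + f[x,y,z] g(z)` -/
theorem dd2_mul (f f1 f2 g g1 g2 : ℝ → ℝ) (x y z : ℝ) :
    dd2 (fun t => f t * g t) (fun t => f1 t * g t + f t * g1 t)
        (fun t => f2 t * g t + 2 * (f1 t * g1 t) + f t * g2 t) x y z
      = f x * dd2 g g1 g2 x y z + dd1 f f1 x y * dd1 g g1 y z + dd2 f f1 f2 x y z * g z := by
  by_cases h : x = z
  · subst h
    by_cases h' : x = y
    · subst h'; simp only [dd2_self, dd1_self]; ring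
    · simp only [dd2_xyx _ _ _ h', dd1_mul, dd1_comm g g1 y x]
      have h1 := sub_ne_zero.2 h'
      have e := mul_dd1 f f1 x y
      have e' := mul_dd1 g g1 x y
      have e2 : f x - f y = (x - y) * dd1 f f1 x y := e.symm
      have e3 : g x = g y + (x - y) * dd1 g g1 x y := by linarith
      rw [e3]
      field_simp
      ring
  · simp only [dd2_ne _ _ _ h, dd1_mul]
    have h1 := sub_ne_zero.2 h
    have e := mul_dd1 f f1 x y
    have e' := mul_dd1 g g1 y z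
    rw [show f x = f y + (x - y) * dd1 f f1 x y by linarith,
      show g y = g z + (y - z) * dd1 g g1 y z by linarith]
    field_simp
    ring

/-- square: `(f²)[x,y] = (f x + f y) f[x,y]` -/
theorem dd1_sq (f f1 : ℝ → ℝ) (x y : ℝ) :
    dd1 (fun t => f t ^ 2) (fun t => 2 * f t * f1 t) x y = (f x + f y) * dd1 f f1 x y := by
  by_cases h : x = y
  · subst h; simp only [dd1_self]; ring
  · simp only [dd1_ne _ _ h]; ring

/-- square, second order: `(f²)[x,y,z] = (f x + f z) f[x,y,z] + f[x,y] f[y,z]` -/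
theorem dd2_sq (f f1 f2 : ℝ → ℝ) (x y z : ℝ) :
    dd2 (fun t => f t ^ 2) (fun t => 2 * f t * f1 t)
        (fun t => 2 * (f1 t) ^ 2 + 2 * f t * f2 t) x y z
      = (f x + f z) * dd2 f f1 f2 x y z + dd1 f f1 x y * dd1 f f1 y z := by
  have h := dd2_mul f f1 f2 f f1 f2 x y z
  have e0 : (fun t => f t * f t) = fun t => f t ^ 2 := by funext t; ring
  have e1 : (fun t => f1 t * f t + f t * f1 t) = fun t => 2 * f t * f1 t := by funext t; ring
  have e2 : (fun t => f2 t * f t + 2 * (f1 t * f1 t) + f t * f2 t)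
      = fun t => 2 * (f1 t) ^ 2 + 2 * f t * f2 t := by funext t; ring
  rw [e0, e1, e2] at h
  rw [h]; ring

/-! ### reciprocals and quotients -/

/-- `(1/f)[x,y] = - f[x,y] / (f x f y)` -/
theorem dd1_inv (f f1 : ℝ → ℝ) (hx : f x ≠ 0) (hy : f y ≠ 0) :
    dd1 (fun t => (f t)⁻¹) (fun t => - f1 t / f t ^ 2) x y = - dd1 f f1 x y / (f x * f y) := by
  by_cases h : x = y
  · subst h; simp only [dd1_self]; ring
  · simp only [dd1_ne _ _ h]
    have h1 := sub_ne_zero.2 h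
    field_simp
    ring

/-- `(1/f)[x,y,z] = - f[x,y,z] / (f x f z) + f[x,y] f[y,z] / (f x f y f z)` -/
theorem dd2_inv (f f1 f2 : ℝ → ℝ) (hx : f x ≠ 0) (hy : f y ≠ 0) (hz : f z ≠ 0) :
    dd2 (fun t => (f t)⁻¹) (fun t => - f1 t / f t ^ 2)
        (fun t => - f2 t / f t ^ 2 + 2 * (f1 t) ^ 2 / f t ^ 3) x y z
      = - dd2 f f1 f2 x y z / (f x * f z)
        + dd1 f f1 x y * dd1 f f1 y z / (f x * f y * f z) := by
  by_cases h : x = z
  · subst h
    by_cases h' : x = y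
    · subst h'; simp only [dd2_self, dd1_self]; field_simp
    · rw [dd2_xyx _ _ _ h', dd2_xyx _ _ _ h', dd1_inv f f1 hx hy, dd1_comm f f1 y x]
      have h1 := sub_ne_zero.2 h'
      have e3 := mul_dd1 f f1 x y
      set d := dd1 f f1 x y with hd
      have key : -f1 x * f y + d * f x = -(f1 x - d) * f y + (x - y) * d * d := by
        linear_combination (-d) * e3
      have l1 : (-f1 x / f x ^ 2 - -d / (f x * f y)) / (x - y)
          = (-f1 x * f y + d * f x) / ((x - y) * (f x ^ 2 * f y)) := by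
        field_simp
        ring
      have l2 : -((f1 x - d) / (x - y)) / (f x * f x) + d * d / (f x * f y * f x)
          = (-(f1 x - d) * f y + (x - y) * d * d) / ((x - y) * (f x ^ 2 * f y)) := by
        field_simp
      rw [l1, l2, key]
  · rw [dd2_ne _ _ _ h, dd2_ne _ _ _ h, dd1_inv f f1 hx hy, dd1_inv f f1 hy hz]
    have h1 := sub_ne_zero.2 h
    have e := mul_dd1 f f1 x y
    have e' := mul_dd1 f f1 y z
    set d := dd1 f f1 x y with hd
    set d' := dd1 f f1 y z with hd'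
    have key : -d * f z + d' * f x = -(d - d') * f y + (x - z) * d * d' := by
      linear_combination (-d) * e' + (-d') * e
    have l1 : (-d / (f x * f y) - -d' / (f y * f z)) / (x - z)
        = (-d * f z + d' * f x) / ((x - z) * (f x * f y * f z)) := by
      field_simp
      ring
    have l2 : -((d - d') / (x - z)) / (f x * f z) + d * d' / (f x * f y * f z)
        = (-(d - d') * f y + (x - z) * d * d') / ((x - z) * (f x * f y * f z)) := by
      field_simp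
    rw [l1, l2, key]

/-- quotient, first order: `(f/g)[x,y] = (f[x,y] g(y) - f(y) g[x,y]) / (g x g y)` -/
theorem dd1_div (f f1 g g1 : ℝ → ℝ) (hx : g x ≠ 0) (hy : g y ≠ 0) :
    dd1 (fun t => f t / g t) (fun t => (f1 t * g t - f t * g1 t) / g t ^ 2) x y
      = (dd1 f f1 x y * g y - f y * dd1 g g1 x y) / (g x * g y) := by
  by_cases h : x = y
  · subst h; simp only [dd1_self]; rw [sq]
  · simp only [dd1_ne _ _ h]
    have h1 := sub_ne_zero.2 h
    field_simp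
    ring

/-! ### composition -/

/-- `(φ ∘ f)[x,y] = φ[f x, f y] f[x,y]` -/
theorem dd1_comp (φ φ1 f f1 : ℝ → ℝ) (x y : ℝ) :
    dd1 (fun t => φ (f t)) (fun t => φ1 (f t) * f1 t) x y
      = dd1 φ φ1 (f x) (f y) * dd1 f f1 x y := by
  by_cases h : x = y
  · subst h; simp only [dd1_self]
  · have e := mul_dd1 f f1 x y
    have e' := mul_dd1 φ φ1 (f x) (f y)
    rw [dd1_ne _ _ h, ← e', ← e, mul_comm, mul_div_assoc, mul_div_cancel_left₀ _ (sub_ne_zero.2 h)]

theorem mul_dd2_right (f f1 f2 : ℝ → ℝ) (x y z : ℝ) :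
    (y - z) * dd2 f f1 f2 x y z = dd1 f f1 x y - dd1 f f1 x z := by
  rw [dd2_swap, mul_dd2, dd1_comm f f1 y x]

theorem mul_dd2_left (f f1 f2 : ℝ → ℝ) (x y z : ℝ) :
    (x - y) * dd2 f f1 f2 x y z = dd1 f f1 x z - dd1 f f1 y z := by
  rw [dd2_swap', mul_dd2, dd1_comm f f1 z y]

/-- `(φ ∘ f)[x,y,z] = φ[f x, f z] f[x,y,z] + φ[f x, f y, f z] f[x,y] f[y,z]` -/
theorem dd2_comp (φ φ1 φ2 f f1 f2 : ℝ → ℝ) (x y z : ℝ) :
    dd2 (fun t => φ (f t)) (fun t => φ1 (f t) * f1 t)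
        (fun t => φ2 (f t) * (f1 t) ^ 2 + φ1 (f t) * f2 t) x y z
      = dd1 φ φ1 (f x) (f z) * dd2 f f1 f2 x y z
        + dd2 φ φ1 φ2 (f x) (f y) (f z) * (dd1 f f1 x y * dd1 f f1 y z) := by
  by_cases h : x = z
  · subst h
    by_cases h' : x = y
    · subst h'; simp only [dd2_self, dd1_self]; ring
    · rw [dd2_xyx _ _ _ h', dd2_xyx _ _ _ h', dd1_comp, dd1_self, dd1_comm f f1 y x]
      have h1 := sub_ne_zero.2 h'
      have e := mul_dd1 f f1 x y
      have e2 := mul_dd2_left φ φ1 φ2 (f x) (f y) (f x)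
      rw [dd1_self, dd1_comm φ φ1 (f y) (f x)] at e2
      set d := dd1 f f1 x y with hd
      set P := dd2 φ φ1 φ2 (f x) (f y) (f x) with hP
      set k := dd1 φ φ1 (f x) (f y) with hk
      rw [eq_comm, ← sub_eq_zero]
      have key : φ1 (f x) * (f1 x - d) + (x - y) * (P * (d * d)) - (φ1 (f x) * f1 x - k * d)
          = 0 := by
        linear_combination P * d * e + d * e2
      have : φ1 (f x) * ((f1 x - d) / (x - y)) + P * (d * d)
          - (φ1 (f x) * f1 x - k * d) / (x - y)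
          = (φ1 (f x) * (f1 x - d) + (x - y) * (P * (d * d)) - (φ1 (f x) * f1 x - k * d))
            / (x - y) := by
        field_simp
      rw [this, key, zero_div]
  · rw [dd2_ne _ _ _ h, dd2_ne _ _ _ h, dd1_comp, dd1_comp]
    have h1 := sub_ne_zero.2 h
    have e := mul_dd1 f f1 x y
    have e' := mul_dd1 f f1 y z
    have e2 := mul_dd2_left φ φ1 φ2 (f x) (f y) (f z)
    have e3 := mul_dd2_right φ φ1 φ2 (f x) (f y) (f z)
    set d := dd1 f f1 x y with hd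
    set d' := dd1 f f1 y z with hd'
    set P := dd2 φ φ1 φ2 (f x) (f y) (f z) with hP
    set a := dd1 φ φ1 (f x) (f y) with ha
    set b := dd1 φ φ1 (f y) (f z) with hb
    set c := dd1 φ φ1 (f x) (f z) with hc
    rw [eq_comm, ← sub_eq_zero]
    have key : c * (d - d') + (x - z) * (P * (d * d')) - (a * d - b * d') = 0 := by
      linear_combination P * d' * e + P * d * e' + d' * e2 + d * e3
    have : c * ((d - d') / (x - z)) + P * (d * d') - (a * d - b * d') / (x - z)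
        = (c * (d - d') + (x - z) * (P * (d * d')) - (a * d - b * d')) / (x - z) := by
      field_simp
    rw [this, key, zero_div]

/-! ### mean value forms -/

theorem exists_dd1_Ioo {s : Set ℝ} (hs : s.OrdConnected)
    (hf : ∀ t ∈ s, HasDerivAt f (f1 t) t) (hx : x ∈ s) (hy : y ∈ s) (h : x < y) :
    ∃ ξ ∈ Ioo x y, dd1 f f1 x y = f1 ξ := by
  have hsub : Icc x y ⊆ s := hs.out hx hy
  obtain ⟨ξ, hξ, e⟩ := exists_hasDerivAt_eq_slope f f1 h
    (fun t ht => (hf t (hsub ht)).continuousAt.continuousWithinAt)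
    (fun t ht => hf t (hsub (Ioo_subset_Icc_self ht)))
  refine ⟨ξ, hξ, ?_⟩
  rw [e, dd1_ne f f1 h.ne, ← neg_sub (f y) (f x), ← neg_sub y x, neg_div_neg_eq]

theorem exists_dd1 {s : Set ℝ} (hs : s.OrdConnected)
    (hf : ∀ t ∈ s, HasDerivAt f (f1 t) t) (hx : x ∈ s) (hy : y ∈ s) :
    ∃ ξ ∈ uIcc x y, dd1 f f1 x y = f1 ξ := by
  rcases lt_trichotomy x y with h | h | h
  · obtain ⟨ξ, hξ, e⟩ := exists_dd1_Ioo hs hf hx hy h
    exact ⟨ξ, by rw [uIcc_of_le h.le]; exact Ioo_subset_Icc_self hξ, e⟩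
  · subst h; exact ⟨x, left_mem_uIcc, dd1_self f f1 x⟩
  · obtain ⟨ξ, hξ, e⟩ := exists_dd1_Ioo hs hf hy hx h
    exact ⟨ξ, by rw [uIcc_of_ge h.le]; exact Ioo_subset_Icc_self hξ, by rw [dd1_comm, e]⟩

theorem exists_dd2_sorted {s : Set ℝ} (hs : s.OrdConnected)
    (hf : ∀ t ∈ s, HasDerivAt f (f1 t) t) (hf' : ∀ t ∈ s, HasDerivAt f1 (f2 t) t)
    (hx : x ∈ s) (hy : y ∈ s) (hz : z ∈ s) (hxy : x ≤ y) (hyz : y ≤ z) :
    ∃ ξ ∈ Icc x z, dd2 f f1 f2 x y z = f2 ξ / 2 := by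
  rcases (hxy.trans hyz).eq_or_lt with hxz | hxz
  · subst hxz
    have : x = y := le_antisymm hxy hyz
    subst this
    exact ⟨x, left_mem_Icc.2 le_rfl, dd2_self f f1 f2 x⟩
  set c := dd2 f f1 f2 x y z with hc
  have hsub : Icc x z ⊆ s := hs.out hx hz
  -- the modified function
  let g : ℝ → ℝ := fun t => f t + (-c) * t ^ 2
  let g1 : ℝ → ℝ := fun t => f1 t + (-c) * (2 * t)
  let g2 : ℝ → ℝ := fun t => f2 t + (-c) * 2
  have hg : ∀ t ∈ s, HasDerivAt g (g1 t) t := fun t ht => by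
    have h2 : HasDerivAt (fun t : ℝ => t ^ 2) (2 * t) t := by simpa using hasDerivAt_pow 2 t
    exact (hf t ht).add (h2.const_mul (-c))
  have hg' : ∀ t ∈ s, HasDerivAt g1 (g2 t) t := fun t ht => by
    have h2 : HasDerivAt (fun t : ℝ => 2 * t) 2 t := by simpa using (hasDerivAt_id t).const_mul 2
    exact (hf' t ht).add (h2.const_mul (-c))
  have e0 : dd1 g g1 x y = dd1 g g1 y z := by
    have l : ∀ u v : ℝ, dd1 g g1 u v = dd1 f f1 u v + (-c) * (u + v) := by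
      intro u v
      have a1 := dd1_add f f1 (fun t => (-c) * t ^ 2) (fun t => (-c) * (2 * t)) u v
      have a2 := dd1_smul (-c) (fun t => t ^ 2) (fun t => 2 * t) u v
      have a3 : dd1 (fun t : ℝ => t ^ 2) (fun t => 2 * t) u v = u + v := by
        by_cases huv : u = v
        · subst huv; rw [dd1_self]; ring
        · rw [dd1_ne _ _ huv, div_eq_iff (sub_ne_zero.2 huv)]; ring
      show dd1 (fun t => f t + (-c) * t ^ 2) (fun t => f1 t + (-c) * (2 * t)) u v = _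
      rw [a1, a2, a3]
    rw [l, l]
    have := mul_dd2 f f1 f2 x y z
    rw [← hc] at this
    linarith
  obtain ⟨a, b, ha, hb, hab, hga⟩ : ∃ a b, a ∈ Icc x z ∧ b ∈ Icc x z ∧ a < b ∧ g1 a = g1 b := by
    rcases hxy.eq_or_lt with h1 | h1
    · subst h1
      obtain ⟨b, hb, e⟩ := exists_dd1_Ioo hs hg hx hz hxz
      refine ⟨x, b, left_mem_Icc.2 hxz.le, Ioo_subset_Icc_self hb, hb.1, ?_⟩
      rw [← e, ← e0, dd1_self]
    · obtain ⟨a, ha, e⟩ := exists_dd1_Ioo hs hg hx hy h1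
      rcases hyz.eq_or_lt with h2 | h2
      · subst h2
        refine ⟨a, y, Ioo_subset_Icc_self ha, right_mem_Icc.2 h1.le, ha.2, ?_⟩
        rw [← e, e0, dd1_self]
      · obtain ⟨b, hb, e'⟩ := exists_dd1_Ioo hs hg hy hz h2
        refine ⟨a, b, ⟨ha.1.le, ha.2.le.trans hyz⟩, ⟨hxy.trans hb.1.le, hb.2.le⟩,
          ha.2.trans hb.1, ?_⟩
        rw [← e, ← e', e0]
  have hsub' : Icc a b ⊆ s := fun t ht => hsub ⟨ha.1.trans ht.1, ht.2.trans hb.2⟩
  obtain ⟨ξ, hξ, e⟩ := exists_hasDerivAt_eq_zero hab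
    (fun t ht => (hg' t (hsub' ht)).continuousAt.continuousWithinAt) hga
    (fun t ht => hg' t (hsub' (Ioo_subset_Icc_self ht)))
  refine ⟨ξ, ⟨ha.1.trans hξ.1.le, hξ.2.le.trans hb.2⟩, ?_⟩
  have : f2 ξ + (-c) * 2 = 0 := e
  linarith

theorem exists_dd2 {s : Set ℝ} (hs : s.OrdConnected)
    (hf : ∀ t ∈ s, HasDerivAt f (f1 t) t) (hf' : ∀ t ∈ s, HasDerivAt f1 (f2 t) t)
    (hx : x ∈ s) (hy : y ∈ s) (hz : z ∈ s) :
    ∃ ξ ∈ s, dd2 f f1 f2 x y z = f2 ξ / 2 := by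
  have key : ∀ x y z : ℝ, x ∈ s → y ∈ s → z ∈ s → x ≤ y → y ≤ z →
      ∃ ξ ∈ s, dd2 f f1 f2 x y z = f2 ξ / 2 := by
    intro x y z hx hy hz h1 h2
    obtain ⟨ξ, hξ, e⟩ := exists_dd2_sorted hs hf hf' hx hy hz h1 h2
    exact ⟨ξ, hs.out hx hz hξ, e⟩
  rcases le_total x y with h1 | h1 <;> rcases le_total y z with h2 | h2 <;>
    rcases le_total x z with h3 | h3
  · exact key x y z hx hy hz h1 h2
  · exact key x y z hx hy hz h1 h2
  · obtain ⟨ξ, hξ, e⟩ := key x z y hx hz hy h3 h2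
    exact ⟨ξ, hξ, by rw [dd2_swap', e]⟩
  · obtain ⟨ξ, hξ, e⟩ := key z x y hz hx hy h3 h1
    exact ⟨ξ, hξ, by rw [dd2_rot, dd2_rot, e]⟩
  · obtain ⟨ξ, hξ, e⟩ := key y x z hy hx hz h1 h3
    exact ⟨ξ, hξ, by rw [dd2_swap, e]⟩
  · obtain ⟨ξ, hξ, e⟩ := key y z x hy hz hx h2 h3
    exact ⟨ξ, hξ, by rw [← e, dd2_rot]⟩
  · obtain ⟨ξ, hξ, e⟩ := key z y x hz hy hx h2 h1
    exact ⟨ξ, hξ, by rw [dd2_rev, e]⟩
  · obtain ⟨ξ, hξ, e⟩ := key z y x hz hy hx h2 h1
    exact ⟨ξ, hξ, by rw [dd2_rev, e]⟩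

/-! ### bounds -/

section bounds

variable {s : Set ℝ}

theorem dd1_le (hs : s.OrdConnected) (hf : ∀ t ∈ s, HasDerivAt f (f1 t) t) {M : ℝ}
    (hM : ∀ t ∈ s, f1 t ≤ M) (hx : x ∈ s) (hy : y ∈ s) : dd1 f f1 x y ≤ M := by
  obtain ⟨ξ, hξ, e⟩ := exists_dd1 hs hf hx hy
  rw [e]; exact hM ξ (hs.uIcc_subset hx hy hξ)

theorem le_dd1 (hs : s.OrdConnected) (hf : ∀ t ∈ s, HasDerivAt f (f1 t) t) {m : ℝ}
    (hm : ∀ t ∈ s, m ≤ f1 t) (hx : x ∈ s) (hy : y ∈ s) : m ≤ dd1 f f1 x y := by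
  obtain ⟨ξ, hξ, e⟩ := exists_dd1 hs hf hx hy
  rw [e]; exact hm ξ (hs.uIcc_subset hx hy hξ)

theorem dd2_le (hs : s.OrdConnected) (hf : ∀ t ∈ s, HasDerivAt f (f1 t) t)
    (hf' : ∀ t ∈ s, HasDerivAt f1 (f2 t) t) {M : ℝ} (hM : ∀ t ∈ s, f2 t ≤ M)
    (hx : x ∈ s) (hy : y ∈ s) (hz : z ∈ s) : dd2 f f1 f2 x y z ≤ M / 2 := by
  obtain ⟨ξ, hξ, e⟩ := exists_dd2 hs hf hf' hx hy hz
  rw [e]; have := hM ξ hξ; linarith

theorem le_dd2 (hs : s.OrdConnected) (hf : ∀ t ∈ s, HasDerivAt f (f1 t) t)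
    (hf' : ∀ t ∈ s, HasDerivAt f1 (f2 t) t) {m : ℝ} (hm : ∀ t ∈ s, m ≤ f2 t)
    (hx : x ∈ s) (hy : y ∈ s) (hz : z ∈ s) : m / 2 ≤ dd2 f f1 f2 x y z := by
  obtain ⟨ξ, hξ, e⟩ := exists_dd2 hs hf hf' hx hy hz
  rw [e]; have := hm ξ hξ; linarith

/-- concave: `f[x,y,z] ≤ 0` -/
theorem dd2_nonpos (hs : s.OrdConnected) (hf : ∀ t ∈ s, HasDerivAt f (f1 t) t)
    (hf' : ∀ t ∈ s, HasDerivAt f1 (f2 t) t) (hM : ∀ t ∈ s, f2 t ≤ 0)
    (hx : x ∈ s) (hy : y ∈ s) (hz : z ∈ s) : dd2 f f1 f2 x y z ≤ 0 := by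
  have := dd2_le hs hf hf' hM hx hy hz; linarith

/-- convex: `0 ≤ f[x,y,z]` -/
theorem dd2_nonneg (hs : s.OrdConnected) (hf : ∀ t ∈ s, HasDerivAt f (f1 t) t)
    (hf' : ∀ t ∈ s, HasDerivAt f1 (f2 t) t) (hm : ∀ t ∈ s, 0 ≤ f2 t)
    (hx : x ∈ s) (hy : y ∈ s) (hz : z ∈ s) : 0 ≤ dd2 f f1 f2 x y z := by
  have := le_dd2 hs hf hf' hm hx hy hz; linarith

/-- convex: `f[x,y] ≤ f[x,z]` for `y ≤ z` -/
theorem dd1_mono (hs : s.OrdConnected) (hf : ∀ t ∈ s, HasDerivAt f (f1 t) t)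
    (hf' : ∀ t ∈ s, HasDerivAt f1 (f2 t) t) (hm : ∀ t ∈ s, 0 ≤ f2 t)
    (hx : x ∈ s) (hy : y ∈ s) (hz : z ∈ s) (h : y ≤ z) : dd1 f f1 x y ≤ dd1 f f1 x z := by
  have e := mul_dd2_right f f1 f2 x y z
  have p := dd2_nonneg hs hf hf' hm hx hy hz
  nlinarith [mul_nonneg (sub_nonneg.2 h) p]

/-- concave: `f[x,z] ≤ f[x,y]` for `y ≤ z` -/
theorem dd1_anti (hs : s.OrdConnected) (hf : ∀ t ∈ s, HasDerivAt f (f1 t) t)
    (hf' : ∀ t ∈ s, HasDerivAt f1 (f2 t) t) (hM : ∀ t ∈ s, f2 t ≤ 0)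
    (hx : x ∈ s) (hy : y ∈ s) (hz : z ∈ s) (h : y ≤ z) : dd1 f f1 x z ≤ dd1 f f1 x y := by
  have e := mul_dd2_right f f1 f2 x y z
  have p := dd2_nonpos hs hf hf' hM hx hy hz
  nlinarith [mul_nonneg (sub_nonneg.2 h) (neg_nonneg.2 p)]

/-- convex derivative: `f[x,y] ≤ (f'(x) + f'(y)) / 2` (Hermite-Hadamard), in the form
`f1` convex via `f1[x,y,z] ≥ 0` is not needed: here `f1` is assumed convex on `s` -/
theorem dd1_le_avg (hs : s.OrdConnected) (hf : ∀ t ∈ s, HasDerivAt f (f1 t) t)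
    (hc : ConvexOn ℝ s f1) (hx : x ∈ s) (hy : y ∈ s) :
    dd1 f f1 x y ≤ (f1 x + f1 y) / 2 := by
  wlog h : x ≤ y generalizing x y with H
  · rw [dd1_comm, add_comm]; exact H hy hx (le_of_not_ge h)
  rcases h.eq_or_lt with h | h
  · subst h; rw [dd1_self]; linarith
  -- compare with the chord of `f1`
  have hd : 0 < y - x := sub_pos.2 h
  let k : ℝ := (f1 y - f1 x) / (y - x)
  let G : ℝ → ℝ := fun t => f1 x * t + k * ((t - x) ^ 2 / 2) - f t
  let G1 : ℝ → ℝ := fun t => f1 x + k * (t - x) - f1 t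
  have hsub : Icc x y ⊆ s := hs.out hx hy
  have hG : ∀ t ∈ Icc x y, HasDerivAt G (G1 t) t := fun t ht => by
    have a1 : HasDerivAt (fun t : ℝ => f1 x * t) (f1 x) t := by
      simpa using (hasDerivAt_id t).const_mul (f1 x)
    have a2 : HasDerivAt (fun t : ℝ => k * ((t - x) ^ 2 / 2)) (k * (t - x)) t := by
      have b1 : HasDerivAt (fun t : ℝ => t - x) 1 t := (hasDerivAt_id t).sub_const x
      have b2 : HasDerivAt (fun t : ℝ => (t - x) ^ 2) (2 * (t - x)) t := by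
        simpa using b1.fun_pow 2
      have b3 := (b2.div_const 2).const_mul k
      refine b3.congr_deriv ?_
      ring
    exact (a1.add a2).sub (hf t (hsub ht))
  have hG1 : ∀ t ∈ Icc x y, 0 ≤ G1 t := fun t ht => by
    have ht' : t - x ≤ y - x := by linarith [ht.2]
    have ht0 : 0 ≤ t - x := by linarith [ht.1]
    have e := hc.2 hx hy (show (0 : ℝ) ≤ (y - t) / (y - x) from
      div_nonneg (by linarith [ht.2]) hd.le) (show (0 : ℝ) ≤ (t - x) / (y - x) from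
      div_nonneg ht0 hd.le) (by field_simp; ring)
    simp only [smul_eq_mul] at e
    have e1 : (y - t) / (y - x) * x + (t - x) / (y - x) * y = t := by field_simp; ring
    rw [e1] at e
    have e2 : (y - t) / (y - x) * f1 x + (t - x) / (y - x) * f1 y = f1 x + k * (t - x) := by
      show _ = f1 x + (f1 y - f1 x) / (y - x) * (t - x)
      field_simp; ring
    show 0 ≤ f1 x + k * (t - x) - f1 t
    linarith
  have mono : MonotoneOn G (Icc x y) := by
    refine monotoneOn_of_deriv_nonneg (convex_Icc x y)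
      (fun t ht => (hG t ht).continuousAt.continuousWithinAt)
      (fun t ht => ?_) (fun t ht => ?_)
    · rw [interior_Icc] at ht
      exact (hG t (Ioo_subset_Icc_self ht)).differentiableAt.differentiableWithinAt
    · rw [interior_Icc] at ht
      rw [(hG t (Ioo_subset_Icc_self ht)).deriv]
      exact hG1 t (Ioo_subset_Icc_self ht)
  have m := mono (left_mem_Icc.2 h.le) (right_mem_Icc.2 h.le) h.le
  have m' : f1 x * x + k * ((x - x) ^ 2 / 2) - f x ≤ f1 x * y + k * ((y - x) ^ 2 / 2) - f y := m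
  have e3 : k * ((y - x) ^ 2 / 2) = (f1 y - f1 x) * (y - x) / 2 := by
    show (f1 y - f1 x) / (y - x) * ((y - x) ^ 2 / 2) = _
    field_simp
  rw [e3] at m'
  rw [dd1_comm, dd1_ne f f1 h.ne', div_le_iff₀ hd]
  nlinarith

end bounds

/-! ### Cauchy-Schwarz -/

/-- `F'² ≤ G' K'` and `G', K' ≥ 0` give `F[x,y]² ≤ G[x,y] K[x,y]` -/
theorem dd1_sq_le_mul {s : Set ℝ} {F F1 G G1 K K1 : ℝ → ℝ} (hs : s.OrdConnected)
    (hF : ∀ t ∈ s, HasDerivAt F (F1 t) t) (hG : ∀ t ∈ s, HasDerivAt G (G1 t) t)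
    (hK : ∀ t ∈ s, HasDerivAt K (K1 t) t) (hG0 : ∀ t ∈ s, 0 ≤ G1 t) (hK0 : ∀ t ∈ s, 0 ≤ K1 t)
    (h : ∀ t ∈ s, F1 t ^ 2 ≤ G1 t * K1 t) (hx : x ∈ s) (hy : y ∈ s) :
    dd1 F F1 x y ^ 2 ≤ dd1 G G1 x y * dd1 K K1 x y := by
  -- for every `r`: `r² G + 2 r F + K` has nonnegative derivative
  have key : ∀ r : ℝ, 0 ≤ dd1 G G1 x y * (r * r) + 2 * dd1 F F1 x y * r + dd1 K K1 x y := by
    intro r
    have hH : ∀ t ∈ s, HasDerivAt (fun t => (r * r) * G t + ((2 * r) * F t + K t))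
        ((r * r) * G1 t + ((2 * r) * F1 t + K1 t)) t := fun t ht =>
      ((hG t ht).const_mul (r * r)).add (((hF t ht).const_mul (2 * r)).add (hK t ht))
    have hH0 : ∀ t ∈ s, (0 : ℝ) ≤ (r * r) * G1 t + ((2 * r) * F1 t + K1 t) := fun t ht => by
      have a := hG0 t ht
      have b := hK0 t ht
      have c := h t ht
      by_cases hG' : G1 t = 0
      · have : F1 t = 0 := by
          have : F1 t ^ 2 ≤ 0 := by rw [hG', zero_mul] at c; exact c
          nlinarith [sq_nonneg (F1 t)]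
        rw [hG', this]; nlinarith
      · have hp : 0 < G1 t := lt_of_le_of_ne a (Ne.symm hG')
        have : 0 ≤ G1 t * ((r * r) * G1 t + ((2 * r) * F1 t + K1 t)) := by
          nlinarith [sq_nonneg (r * G1 t + F1 t)]
        exact nonneg_of_mul_nonneg_right this hp
    have m := le_dd1 (f := fun t => (r * r) * G t + ((2 * r) * F t + K t))
      (f1 := fun t => (r * r) * G1 t + ((2 * r) * F1 t + K1 t)) hs hH hH0 hx hy
    rw [dd1_add (fun t => (r * r) * G t) (fun t => (r * r) * G1 t)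
      (fun t => (2 * r) * F t + K t) (fun t => (2 * r) * F1 t + K1 t),
      dd1_smul, dd1_add (fun t => (2 * r) * F t) (fun t => (2 * r) * F1 t), dd1_smul] at m
    linarith
  have := discrim_le_zero key
  unfold discrim at this
  nlinarith

/-- `F'² ≤ G'` gives `F[x,y]² ≤ G[x,y]` -/
theorem dd1_sq_le {s : Set ℝ} {F F1 G G1 : ℝ → ℝ} (hs : s.OrdConnected)
    (hF : ∀ t ∈ s, HasDerivAt F (F1 t) t) (hG : ∀ t ∈ s, HasDerivAt G (G1 t) t)
    (h : ∀ t ∈ s, F1 t ^ 2 ≤ G1 t) (hx : x ∈ s) (hy : y ∈ s) :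
    dd1 F F1 x y ^ 2 ≤ dd1 G G1 x y := by
  have e := dd1_sq_le_mul (K := fun t => t) (K1 := fun _ => 1) hs hF hG
    (fun t _ => hasDerivAt_id t) (fun t ht => (sq_nonneg _).trans (h t ht))
    (fun _ _ => zero_le_one) (fun t ht => by rw [mul_one]; exact h t ht) hx hy
  have e1 : dd1 (fun t : ℝ => t) (fun _ => 1) x y = 1 := by
    by_cases hxy : x = y
    · subst hxy; rw [dd1_self]
    · rw [dd1_ne _ _ hxy, div_self (sub_ne_zero.2 hxy)]
  rw [e1, mul_one] at e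
  exact e

/-! ### two point inequalities -/

/-- `g` positive concave with `k' = 1/g²`: `k[x,y]² ≤ k'(x) k'(y)` (the 2x2 Loewner inequality),
in the sharper form `k[x,y] ≤ 1 / (g x g y)` -/
theorem dd1_le_of_concave {s : Set ℝ} {k k1 g : ℝ → ℝ} (hs : s.OrdConnected)
    (hk : ∀ t ∈ s, HasDerivAt k (k1 t) t) (hg : ConcaveOn ℝ s g) (hg0 : ∀ t ∈ s, 0 < g t)
    (hk1 : ∀ t ∈ s, k1 t = 1 / g t ^ 2) (hx : x ∈ s) (hy : y ∈ s) :
    dd1 k k1 x y ≤ 1 / (g x * g y) := by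
  wlog h : x ≤ y generalizing x y with H
  · rw [dd1_comm, mul_comm (g x)]; exact H hy hx (le_of_not_ge h)
  rcases h.eq_or_lt with h | h
  · subst h; rw [dd1_self, hk1 x hx, sq]
  have hd : 0 < y - x := sub_pos.2 h
  have hsub : Icc x y ⊆ s := hs.out hx hy
  have gx := hg0 x hx
  have gy := hg0 y hy
  -- the chord of `g` and its antiderivative `(t - x) / (g x * ch t)`
  let m : ℝ := (g y - g x) / (y - x)
  let ch : ℝ → ℝ := fun t => g x + m * (t - x)
  have hch : ∀ t ∈ Icc x y, 0 < ch t ∧ ch t ≤ g t := fun t ht => by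
    have ht' : t - x ≤ y - x := by linarith [ht.2]
    have ht0 : 0 ≤ t - x := by linarith [ht.1]
    have e2 : (y - t) / (y - x) * g x + (t - x) / (y - x) * g y = ch t := by
      show _ = g x + (g y - g x) / (y - x) * (t - x)
      field_simp; ring
    constructor
    · rw [← e2]
      rcases eq_or_lt_of_le ht0 with h0 | h0
      · rw [← h0]
        have : y - t = y - x := by linarith
        rw [this, div_self hd.ne']; simp [gx]
      · have a1 : 0 ≤ (y - t) / (y - x) * g x :=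
          mul_nonneg (div_nonneg (by linarith [ht.2]) hd.le) gx.le
        have a2 : 0 < (t - x) / (y - x) * g y := mul_pos (div_pos h0 hd) gy
        linarith
    · have e := hg.2 hx hy (show (0 : ℝ) ≤ (y - t) / (y - x) from
        div_nonneg (by linarith [ht.2]) hd.le) (show (0 : ℝ) ≤ (t - x) / (y - x) from
        div_nonneg ht0 hd.le) (by field_simp; ring)
      simp only [smul_eq_mul] at e
      have e1 : (y - t) / (y - x) * x + (t - x) / (y - x) * y = t := by field_simp; ring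
      rw [e1, e2] at e
      exact e
  have hchd : ∀ t, HasDerivAt ch m t := fun t => by
    have b1 : HasDerivAt (fun t : ℝ => t - x) 1 t := (hasDerivAt_id t).sub_const x
    have := (b1.const_mul m).const_add (g x)
    rw [mul_one] at this
    exact this
  let G : ℝ → ℝ := fun t => (t - x) / (g x * ch t) - k t
  have hG : ∀ t ∈ Icc x y, HasDerivAt G (1 / ch t ^ 2 - k1 t) t := fun t ht => by
    have b1 : HasDerivAt (fun t : ℝ => t - x) 1 t := (hasDerivAt_id t).sub_const x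
    have b2 : HasDerivAt (fun t => g x * ch t) (g x * m) t := (hchd t).const_mul (g x)
    have hc0 := (hch t ht).1
    have b3 := b1.div b2 (mul_pos gx hc0).ne'
    have b4 := b3.sub (hk t (hsub ht))
    refine b4.congr_deriv ?_
    have e : ch t = g x + m * (t - x) := rfl
    have : (1 * (g x * ch t) - (t - x) * (g x * m)) / (g x * ch t) ^ 2 = 1 / ch t ^ 2 := by
      have e' : 1 * (g x * ch t) - (t - x) * (g x * m) = g x ^ 2 := by rw [e]; ring
      rw [e', mul_pow, ← div_div, div_self (pow_ne_zero 2 gx.ne')]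
    rw [this]
  have mono : MonotoneOn G (Icc x y) := by
    refine monotoneOn_of_deriv_nonneg (convex_Icc x y)
      (fun t ht => (hG t ht).continuousAt.continuousWithinAt)
      (fun t ht => ?_) (fun t ht => ?_)
    · rw [interior_Icc] at ht
      exact (hG t (Ioo_subset_Icc_self ht)).differentiableAt.differentiableWithinAt
    · rw [interior_Icc] at ht
      have ht' := Ioo_subset_Icc_self ht
      rw [(hG t ht').deriv, hk1 t (hsub ht')]
      have a1 := (hch t ht').1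
      have a2 := (hch t ht').2
      have : 1 / g t ^ 2 ≤ 1 / ch t ^ 2 :=
        one_div_le_one_div_of_le (pow_pos a1 2) (pow_le_pow_left₀ a1.le a2 2)
      linarith
  have m1 := mono (left_mem_Icc.2 h.le) (right_mem_Icc.2 h.le) h.le
  have m2 : (x - x) / (g x * ch x) - k x ≤ (y - x) / (g x * ch y) - k y := m1
  have e4 : ch y = g y := by
    show g x + (g y - g x) / (y - x) * (y - x) = g y
    field_simp; ring
  rw [sub_self, zero_div, e4] at m2
  rw [dd1_comm, dd1_ne k k1 h.ne', div_le_iff₀ hd]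
  have : 1 / (g x * g y) * (y - x) = (y - x) / (g x * g y) := by ring
  rw [this]; linarith

/-! ### logarithm -/

theorem dd1_log_pos (hx : 0 < x) (hy : 0 < y) : 0 < dd1 Real.log (fun t => t⁻¹) x y := by
  obtain ⟨ξ, hξ, e⟩ := exists_dd1 (f := Real.log) (f1 := fun t => t⁻¹) (s := Ioi 0)
    ordConnected_Ioi (fun t ht => Real.hasDerivAt_log (ne_of_gt ht)) hx hy
  rw [e]
  exact inv_pos.2 ((ordConnected_Ioi (a := (0 : ℝ))).uIcc_subset hx hy hξ)

/-- logarithmic mean: `2 / (x + y) ≤ log[x,y]` -/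
theorem two_div_le_dd1_log (hx : 0 < x) (hy : 0 < y) :
    2 / (x + y) ≤ dd1 Real.log (fun t => t⁻¹) x y := by
  wlog h : y ≤ x generalizing x y with H
  · rw [dd1_comm, add_comm]; exact H hy hx (le_of_not_ge h)
  rcases h.eq_or_lt with h | h
  · subst h; rw [dd1_self]; apply le_of_eq; field_simp; ring
  have hu : 0 < x / y - 1 := by rw [sub_pos, lt_div_iff₀ hy]; linarith
  have e := Real.lt_log_one_add_of_pos hu
  have e1 : 1 + (x / y - 1) = x / y := by ring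
  rw [e1, Real.log_div hx.ne' hy.ne'] at e
  rw [dd1_ne _ _ h.ne', le_div_iff₀ (sub_pos.2 h)]
  have e2 : 2 * (x / y - 1) / (x / y - 1 + 2) = 2 / (x + y) * (x - y) := by
    have : x / y - 1 + 2 ≠ 0 := by positivity
    field_simp
    ring
  rw [e2] at e
  exact e.le

/-- logarithmic mean: `log[x,y] ≤ 1 / √(x y)` -/
theorem dd1_log_le (hx : 0 < x) (hy : 0 < y) :
    dd1 Real.log (fun t => t⁻¹) x y ≤ 1 / Real.sqrt (x * y) := by
  wlog h : y ≤ x generalizing x y with H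
  · rw [dd1_comm, mul_comm x y]; exact H hy hx (le_of_not_ge h)
  rcases h.eq_or_lt with h | h
  · subst h; rw [dd1_self, Real.sqrt_mul_self hy.le, one_div]
  rw [dd1_ne _ _ h.ne', div_le_div_iff₀ (sub_pos.2 h) (Real.sqrt_pos.2 (mul_pos hx hy)), one_mul]
  set u := Real.sqrt x with hu
  set v := Real.sqrt y with hv
  have hu0 : 0 < u := Real.sqrt_pos.2 hx
  have hv0 : 0 < v := Real.sqrt_pos.2 hy
  have ex : x = u ^ 2 := (Real.sq_sqrt hx.le).symm
  have ey : y = v ^ 2 := (Real.sq_sqrt hy.le).symm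
  have exy : Real.sqrt (x * y) = u * v := Real.sqrt_mul hx.le y
  have huv : v ≤ u := Real.sqrt_le_sqrt h.le
  rw [exy]
  have hs : 0 ≤ Real.log (u / v) := Real.log_nonneg (by rw [le_div_iff₀ hv0]; linarith)
  have e := Real.self_le_sinh_iff.2 hs
  rw [Real.sinh_eq, Real.exp_neg, Real.exp_log (div_pos hu0 hv0), Real.log_div hu0.ne' hv0.ne'] at e
  have e1 : Real.log x - Real.log y = 2 * (Real.log u - Real.log v) := by
    rw [ex, ey, Real.log_pow, Real.log_pow]; push_cast; ring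
  rw [e1, ex, ey]
  have e2 : (u / v - (u / v)⁻¹) / 2 = (u ^ 2 - v ^ 2) / (2 * (u * v)) := by
    field_simp
  rw [e2, le_div_iff₀ (by positivity)] at e
  linarith

end Vale.Agent.P254.H321
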